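import Vale.Agent.Lib.P195.Main

namespace Vale.Agent.Results.P195.A_main

open CategoryTheory Abelian

universe u v

/-- The Auslander-Reiten conjecture holds for every Artin algebra with radical cube zero:
if `Ext^i(M, M) = 0` and `Ext^i(M, R) = 0` for all `i ≥ 1`, then `M` is projective. -/
theorem result {C : Type v} [CommRing C] [IsArtinianRing C] {R : Type u} [Ring R] [Algebra C R]
    [Module.Finite C R] (hJ : Ring.jacobson R ^ 3 = ⊥)
    (M : ModuleCat.{u} R) [Module.Finite R M]
    (hM : ∀ i : ℕ, 1 ≤ i → Subsingleton (Ext M M i))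
    (hR : ∀ i : ℕ, 1 ≤ i → Subsingleton (Ext M (ModuleCat.of R R) i)) :
    Module.Projective R M :=
  Vale.Agent.Lib.P195.ar_rad_cube_zero C hJ M hM hR

end Vale.Agent.Results.P195.A_main
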