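import Vale.Agent.Lib.P195.TwoTerm

namespace Vale.Agent.Results.P195.C_igusaTodorov

open CategoryTheory Abelian

universe u v

/-- The Auslander-Reiten conjecture holds for every `n`-Igusa-Todorov Artin algebra: if `V` is an
`n`-Igusa-Todorov module for `R`, and `Ext^i(M, M) = 0 = Ext^i(M, R)` for all `i ≥ 1`, then `M` is
projective. -/
theorem result {C : Type v} [CommRing C] [IsArtinianRing C] {R : Type u} [Ring R] [Algebra C R]
    [Module.Finite C R] (n : ℕ) (V : ModuleCat.{u} R) [Module.Finite R V]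
    (hV : Vale.Agent.Lib.P195.IsIgusaTodorov R n V)
    (M : ModuleCat.{u} R) [Module.Finite R M]
    (hM : ∀ i : ℕ, 1 ≤ i → Subsingleton (Ext M M i))
    (hR : ∀ i : ℕ, 1 ≤ i → Subsingleton (Ext M (ModuleCat.of R R) i)) :
    Module.Projective R M :=
  Vale.Agent.Lib.P195.ar_of_igusaTodorov C n V hV M hM hR

end Vale.Agent.Results.P195.C_igusaTodorov
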